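import Vale.Agent.P278.Defs
import Vale.Agent.P278.Stm
import Vale.Agent.P278.Main

open scoped Manifold ContDiff
open Vale.Agent.P278

universe u

/-- Beauville's splitting conjecture: a splitting of the tangent bundle of a compact connected
Kaehler manifold into holomorphic subbundles with integrable sums induces a compatible product
decomposition of the universal covering. -/
theorem Vale.Agent.Results.P278.Splitting.result
    {E : Type*} [NormedAddCommGroup E] [NormedSpace ℂ E] [FiniteDimensional ℂ E]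
    {X : Type*} [TopologicalSpace X] [ChartedSpace E X] [IsManifold 𝓘(ℂ, E) ω X]
    [T2Space X] [CompactSpace X] [ConnectedSpace X]
    (g : X → E →L[ℝ] E →L[ℝ] ℝ) (hg : IsKahlerMetric g)
    {k : ℕ} (V : Fin k → ∀ x : X, Submodule ℂ (TangentSpace 𝓘(ℂ, E) x))
    (hhol : ∀ i, IsHolSubbundle (V i))
    (hsum : ∀ x, DirectSum.IsInternal fun i => V i x)
    (hint : ∀ I : Finset (Fin k), IsIntegrable fun x => ⨆ i ∈ I, V i x)
    {Z : Type u} [TopologicalSpace Z] [ChartedSpace E Z] [IsManifold 𝓘(ℂ, E) ω Z]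
    [T2Space Z] [SecondCountableTopology Z] [SimplyConnectedSpace Z]
    (π : Z → X) (hcov : IsCoveringMap π) (hloc : IsLocalDiffeomorph 𝓘(ℂ, E) 𝓘(ℂ, E) ω π) :
    ∃ (r : Fin k → ℕ) (Y : Fin k → Type u) (_ : ∀ i, TopologicalSpace (Y i))
      (_ : ∀ i, ChartedSpace (Fin (r i) → ℂ) (Y i)),
      (∀ i, IsSCManifold (Fin (r i) → ℂ) (Y i)) ∧
      ExistsCompatBihol (ModelWithCorners.pi fun i => 𝓘(ℂ, Fin (r i) → ℂ)) (∀ i, Y i) π V
        fun i => {w : ∀ j, Fin (r j) → ℂ | ∀ j, j ≠ i → w j = 0} :=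
  main g hg V hhol hsum hint π hcov hloc
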